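import Vale.Agent.P088.R2.H222.Clo
import Vale.Agent.P088.R2.H768.W.Jet

/-!
# P088 (helper493): crude `C^k` bounds of compositions

Sizes of helper222's constants `cB`; functions of two variables; `√` and powers; functions of one
variable as elements of the class `Bk`.
-/

open Set Filter
open scoped ContDiff Topology

noncomputable section

namespace Vale.Agent.P088.R2.H493.INF

open Vale.Agent.P088.R2.H222 Vale.Agent.P088.R2.H768.W

variable {E : Type*} [NormedAddCommGroup E] [NormedSpace ℝ E] {U : Set E} {k : ℕ} {A B M : ℝ}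

theorem cB_nonneg (hM : 0 ≤ M) : 0 ≤ cB k M B := hM.trans (M_le_cB _ _ _)

theorem cB_le (hM : 0 ≤ M) (hB : 1 ≤ B) (k : ℕ) : cB k M B ≤ M * (2 ^ k * B) ^ k := by
  have hB0 : 0 ≤ B := by linarith
  induction k with
  | zero => simp [cB]
  | succ k ih =>
    have h1 : (1 : ℝ) ≤ 2 ^ (k + 1) * B := by
      have : (1 : ℝ) ≤ 2 ^ (k + 1) := one_le_pow₀ (by norm_num)
      nlinarith
    have h2 : (2 : ℝ) ^ k ≤ 2 ^ (k + 1) := pow_le_pow_right₀ (by norm_num) (Nat.le_succ k)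
    refine max_le (le_mul_of_one_le_right hM (one_le_pow₀ h1)) ?_
    calc 2 ^ k * cB k M B * B ≤ 2 ^ k * (M * (2 ^ k * B) ^ k) * B := by gcongr
      _ = M * ((2 ^ k * B) ^ k * (2 ^ k * B)) := by ring
      _ ≤ M * ((2 ^ (k + 1) * B) ^ k * (2 ^ (k + 1) * B)) := by gcongr
      _ = _ := by rw [pow_succ (2 ^ (k + 1) * B)]

/-- The constant for functions of two variables. -/
def cD : ℕ → ℝ → ℝ → ℝ
  | 0, M, _ => M
  | k + 1, M, B => max M (2 ^ (k + 1) * cD k M B * B)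

theorem M_le_cD (k : ℕ) (M B : ℝ) : M ≤ cD k M B := by
  cases k with
  | zero => exact le_rfl
  | succ k => exact le_max_left _ _

theorem cD_le (hM : 0 ≤ M) (hB : 1 ≤ B) (k : ℕ) : cD k M B ≤ M * (2 ^ k * B) ^ k := by
  have hB0 : 0 ≤ B := by linarith
  induction k with
  | zero => simp [cD]
  | succ k ih =>
    have h1 : (1 : ℝ) ≤ 2 ^ (k + 1) * B := by
      have : (1 : ℝ) ≤ 2 ^ (k + 1) := one_le_pow₀ (by norm_num)
      nlinarith
    have h2 : (2 : ℝ) ^ k ≤ 2 ^ (k + 1) := pow_le_pow_right₀ (by norm_num) (Nat.le_succ k)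
    refine max_le (le_mul_of_one_le_right hM (one_le_pow₀ h1)) ?_
    calc 2 ^ (k + 1) * cD k M B * B ≤ 2 ^ (k + 1) * (M * (2 ^ k * B) ^ k) * B := by gcongr
      _ = M * ((2 ^ k * B) ^ k * (2 ^ (k + 1) * B)) := by ring
      _ ≤ M * ((2 ^ (k + 1) * B) ^ k * (2 ^ (k + 1) * B)) := by gcongr
      _ = _ := by rw [pow_succ (2 ^ (k + 1) * B)]

/-- **Functions of two variables.** -/
theorem Bk.comp2 {D : ℕ → ℕ → E2 → ℝ} {O : Set E2} (hs : ∀ i j, ContDiffOn ℝ ∞ (D i j) O)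
    (hd : ∀ i j, ∀ w ∈ O, HasFDerivAt (D i j) (lf (D (i + 1) j w) (D i (j + 1) w)) w)
    {f g : E → ℝ} (hfg : ∀ x ∈ U, (f x, g x) ∈ O) :
    ∀ k i j, Bk k U B f → Bk k U B g →
      (∀ a b, i ≤ a → j ≤ b → a + b ≤ i + j + k → ∀ x ∈ U, |D a b (f x, g x)| ≤ M) →
      Bk k U (cD k M B) (fun x => D i j (f x, g x)) := by
  intro k
  induction k with
  | zero =>
    intro i j hf hg hb
    refine ⟨hf.o, (hs i j).comp (hf.s.prodMk hg.s) hfg, fun m hm x hx => ?_⟩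
    obtain rfl : m = 0 := by omega
    rw [norm_iteratedFDeriv_zero]
    exact hb i j le_rfl le_rfl (by omega) x hx
  | succ k ih =>
    intro i j hf hg hb
    refine Bk.of_fd hf.o ((hs i j).comp (hf.s.prodMk hg.s) hfg) (fun x hx => ?_) ?_
    · exact (hb i j le_rfl le_rfl (by omega) x hx).trans (M_le_cD _ _ _)
    · have hf' := hf.mono (Nat.le_succ k) le_rfl Subset.rfl hf.o
      have hg' := hg.mono (Nat.le_succ k) le_rfl Subset.rfl hf.o
      have h1 := (ih (i + 1) j hf' hg' fun a b ha hb' hab =>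
        hb a b (by omega) hb' (by omega)).smul hf.fd
      have h2 := (ih i (j + 1) hf' hg' fun a b ha hb' hab =>
        hb a b ha (by omega) (by omega)).smul hg.fd
      refine ((h1.add h2).congr fun x hx => ?_).le ?_
      · have e1 := (hd i j _ (hfg x hx)).comp x
          ((hf.diff hx).hasFDerivAt.prodMk (hg.diff hx).hasFDerivAt)
        have e2 : (D i j ∘ fun x => (f x, g x)) = fun x => D i j (f x, g x) := rfl
        rw [e2] at e1
        rw [e1.fderiv]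
        ext v
        simp [lf_apply]
      · have : cD (k + 1) M B = max M (2 ^ (k + 1) * cD k M B * B) := rfl
        rw [this]
        refine le_trans (le_of_eq ?_) (le_max_right _ _)
        ring

/-- The first derivative of a function of two variables: the values of the function are not
used. -/
theorem Bk.fd2 {D : ℕ → ℕ → E2 → ℝ} {O : Set E2} (hs : ∀ i j, ContDiffOn ℝ ∞ (D i j) O)
    (hd : ∀ i j, ∀ w ∈ O, HasFDerivAt (D i j) (lf (D (i + 1) j w) (D i (j + 1) w)) w)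
    {f g : E → ℝ} (hfg : ∀ x ∈ U, (f x, g x) ∈ O) (hf : Bk (k + 1) U B f)
    (hg : Bk (k + 1) U B g)
    (hb : ∀ a b, 1 ≤ a + b → a + b ≤ k + 1 → ∀ x ∈ U, |D a b (f x, g x)| ≤ M) :
    Bk k U (2 ^ (k + 1) * cD k M B * B) (fderiv ℝ fun x => D 0 0 (f x, g x)) := by
  have hf' := hf.mono (Nat.le_succ k) le_rfl Subset.rfl hf.o
  have hg' := hg.mono (Nat.le_succ k) le_rfl Subset.rfl hf.o
  have h1 := (Bk.comp2 hs hd hfg k 1 0 hf' hg' fun a b ha hb' hab =>
    hb a b (by omega) (by omega)).smul hf.fd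
  have h2 := (Bk.comp2 hs hd hfg k 0 1 hf' hg' fun a b ha hb' hab =>
    hb a b (by omega) (by omega)).smul hg.fd
  refine ((h1.add h2).congr fun x hx => ?_).le (le_of_eq (by ring))
  have e1 := (hd 0 0 _ (hfg x hx)).comp x
    ((hf.diff hx).hasFDerivAt.prodMk (hg.diff hx).hasFDerivAt)
  have e2 : (D 0 0 ∘ fun x => (f x, g x)) = fun x => D 0 0 (f x, g x) := rfl
  rw [e2] at e1
  rw [e1.fderiv]
  ext v
  simp [lf_apply]

/-- The first derivative of a composition: the values of the outer function are not used. -/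
theorem Bk.fd1 {I J : Set ℝ} {S : ℝ → ℝ} {f : E → ℝ} (hS : Sk k I J M (deriv S))
    (hs : ContDiffOn ℝ ∞ S J) (hf : Bk (k + 1) U B f) (hI : ∀ x ∈ U, f x ∈ I) :
    Bk k U (2 ^ k * cB k M B * B) (fderiv ℝ fun x => S (f x)) := by
  have h1 := (Bk.comp hS (hf.mono (Nat.le_succ k) le_rfl Subset.rfl hf.o) hI).smul hf.fd
  refine h1.congr fun x hx => ?_
  have hJ := hS.ij (hI x hx)
  exact fderiv_comp' (hf.diff hx)
    (((hs _ hJ).contDiffAt (hS.o.mem_nhds hJ)).differentiableAt (by norm_num))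

/-! ## Functions of one variable -/

/-- From `Bk` on the line to `Sk`. -/
theorem Bk.sk {J : Set ℝ} {S : ℝ → ℝ} (h : Bk k J B S) : Sk k J J B S :=
  ⟨h.o, Subset.rfl, h.s, fun j hj t ht => by
    have := h.b j hj t ht
    rwa [norm_iteratedFDeriv_eq_norm_iteratedDeriv, Real.norm_eq_abs] at this⟩

theorem Sk.bk {J : Set ℝ} {S : ℝ → ℝ} (h : Sk k J J B S) : Bk k J B S :=
  ⟨h.o, h.s, fun j hj t ht => by
    rw [norm_iteratedFDeriv_eq_norm_iteratedDeriv, Real.norm_eq_abs]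
    exact h.b j hj t ht⟩

theorem Sk.up {I J : Set ℝ} {M' : ℝ} {S : ℝ → ℝ} (h : Sk k I J M S) (hM : M ≤ M') :
    Sk k I J M' S := ⟨h.o, h.ij, h.s, fun j hj t ht => (h.b j hj t ht).trans hM⟩

theorem Sk.sub {I I' J : Set ℝ} {S : ℝ → ℝ} (h : Sk k I J M S) (hI : I' ⊆ I) :
    Sk k I' J M S := ⟨h.o, hI.trans h.ij, h.s, fun j hj t ht => h.b j hj t (hI ht)⟩

/-- The constant of the square root. -/
def cQ (k : ℕ) (s₀ : ℝ) : ℝ :=
  ∑ j ∈ Finset.range (k + 1), |(descPochhammer ℝ j).eval (1 / 2 : ℝ)| * s₀⁻¹ ^ j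

theorem cQ_nonneg (k : ℕ) {s₀ : ℝ} (h : 0 < s₀) : 0 ≤ cQ k s₀ :=
  Finset.sum_nonneg fun j _ => mul_nonneg (abs_nonneg _) (by positivity)

/-- **The square root.** -/
theorem sk_sqrt {s₀ T : ℝ} (h0 : 0 < s₀) (k : ℕ) :
    Sk k (Icc s₀ T) (Ioi 0) (cQ k s₀ * √T) fun s => √s := by
  have e : (fun s : ℝ => √s) = fun s => s ^ (1 / 2 : ℝ) := by
    funext s
    rw [Real.sqrt_eq_rpow]
  refine ⟨isOpen_Ioi, fun t ht => lt_of_lt_of_le h0 ht.1, fun t ht => ?_, fun j hj t ht => ?_⟩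
  · exact (contDiffAt_id.sqrt (ne_of_gt ht)).contDiffWithinAt
  · have ht0 : 0 < t := lt_of_lt_of_le h0 ht.1
    rw [e, iteratedDeriv_eq_iterate, Real.iter_deriv_rpow_const, abs_mul,
      abs_of_pos (Real.rpow_pos_of_pos ht0 _)]
    have h1 : t ^ (1 / 2 - (j : ℝ)) = √t * t⁻¹ ^ j := by
      rw [Real.rpow_sub ht0, ← Real.sqrt_eq_rpow, Real.rpow_natCast, inv_pow, div_eq_mul_inv]
    have h2 : t⁻¹ ^ j ≤ s₀⁻¹ ^ j := by
      have : t⁻¹ ≤ s₀⁻¹ := inv_anti₀ h0 ht.1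
      gcongr
    have h3 : √t ≤ √T := Real.sqrt_le_sqrt ht.2
    have h4 : |(descPochhammer ℝ j).eval (1 / 2 : ℝ)| * s₀⁻¹ ^ j ≤ cQ k s₀ :=
      Finset.single_le_sum (f := fun j => |(descPochhammer ℝ j).eval (1 / 2 : ℝ)| * s₀⁻¹ ^ j)
        (fun j _ => mul_nonneg (abs_nonneg _) (by positivity)) (Finset.mem_range.2 (by omega))
    rw [h1]
    calc |(descPochhammer ℝ j).eval (1 / 2 : ℝ)| * (√t * t⁻¹ ^ j) ≤
          |(descPochhammer ℝ j).eval (1 / 2 : ℝ)| * (√T * s₀⁻¹ ^ j) := by gcongr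
      _ = |(descPochhammer ℝ j).eval (1 / 2 : ℝ)| * s₀⁻¹ ^ j * √T := by ring
      _ ≤ _ := mul_le_mul_of_nonneg_right h4 (Real.sqrt_nonneg _)

theorem sk_exp (k : ℕ) (T : ℝ) : Sk k (Iic T) univ (Real.exp T) Real.exp :=
  ⟨isOpen_univ, subset_univ _, Real.contDiff_exp.contDiffOn, fun j _ t ht => by
    rw [iteratedDeriv_eq_iterate, Real.iter_deriv_exp, abs_of_pos (Real.exp_pos _)]
    exact Real.exp_le_exp.2 ht⟩

end Vale.Agent.P088.R2.H493.INF
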